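import Mathlib

namespace Vale.Agent.Results.P192.RewritingSystem

/-- One-step string rewriting with the rule set `R`: an occurrence of a left-hand side `l` of a
rule `(l, r)` of `R` inside the word `u` is replaced by the right-hand side `r`, giving `v`. -/
def Step {S : Type*} (R : Set (List S × List S)) (u v : List S) : Prop :=
  ∃ x y l r, (l, r) ∈ R ∧ u = x ++ l ++ y ∧ v = x ++ r ++ y

private lemma infix_split {S : Type*} {l a u s : List S} (h : l <:+: a ++ (u ++ s))
    (hlen : l.length ≤ u.length) : l <:+: u ++ s ∨ l <:+: a ++ u := by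
  obtain ⟨x, y, hxy⟩ := h
  rw [List.append_assoc] at hxy
  rcases List.append_eq_append_iff.mp hxy with ⟨a', ha, hb⟩ | ⟨c', hx, hc⟩
  · -- a = x ++ a'
    right
    have h1 : l <+: (a' ++ u) ++ s := ⟨y, by rw [hb, List.append_assoc]⟩
    have h2 : (a' ++ u) <+: (a' ++ u) ++ s := List.prefix_append _ _
    have h3 : l <+: a' ++ u :=
      List.prefix_of_prefix_length_le h1 h2 (by simp; omega)
    obtain ⟨t, ht⟩ := h3
    exact ⟨x, t, by rw [ha, List.append_assoc, List.append_assoc, ← ht]⟩
  · left
    exact ⟨c', y, by rw [hc, List.append_assoc]⟩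

private lemma prod_flatten_replicate {G : Type*} [Group G] {S : Type*} (f : S → G) (b : List S)
    (m : ℕ) : (((List.replicate m b).flatten).map f).prod = ((b.map f).prod) ^ m := by
  induction m with
  | zero => simp
  | succ m ih =>
    rw [List.replicate_succ, List.flatten_cons, List.map_append, List.prod_append, ih, pow_succ']

/-- If arbitrarily long words avoid (as factors) a set `T` of words of length at most `m` over a
finite alphabet, then some nonempty word has all its powers avoiding `T`. -/
private lemma exists_periodic {S : Type*} [Finite S] (T : Set (List S)) (m : ℕ)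
    (hm : ∀ l ∈ T, l.length ≤ m)
    (hlong : ∀ N : ℕ, ∃ w : List S, N ≤ w.length ∧ ∀ l ∈ T, ¬ l <:+: w) :
    ∃ v : List S, v ≠ [] ∧ ∀ k : ℕ, ∀ l ∈ T, ¬ l <:+: (List.replicate k v).flatten := by
  classical
  have : Fintype {u : List S // u.length = m} := (List.finite_length_eq S m).fintype
  set c := Fintype.card {u : List S // u.length = m} with hc
  obtain ⟨w, hwlen, hw⟩ := hlong (c + 1 + m)
  let g : Fin (c + 1) → {u : List S // u.length = m} := fun i =>
    ⟨(w.drop i).take m, by
      have := i.2
      simp only [List.length_take, List.length_drop]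
      omega⟩
  obtain ⟨i, j, hij, hgij⟩ := Fintype.exists_ne_map_eq_of_card_lt g (by simp [hc])
  wlog hlt : (i : ℕ) < j generalizing i j
  · refine this j i hij.symm hgij.symm ?_
    have : (i : ℕ) ≠ j := fun h => hij (Fin.ext h)
    omega
  have hwin : (w.drop i).take m = (w.drop j).take m := congrArg Subtype.val hgij
  set u := (w.drop i).take m with hu
  set v := (w.drop i).take (j - i) with hv
  have hi := i.2
  have hj := j.2
  have hulen : u.length = m := by
    simp only [hu, List.length_take, List.length_drop]; omega
  have hvlen : v.length = j - i := by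
    simp only [hv, List.length_take, List.length_drop]; omega
  have hvne : v ≠ [] := by
    intro h
    rw [h] at hvlen
    simp at hvlen
    omega
  -- decompositions
  have hdi : w.drop i = v ++ w.drop j := by
    have h1 := List.take_append_drop (j - i) (w.drop i)
    rw [List.drop_drop] at h1
    have h2 : (i : ℕ) + (j - i) = j := by omega
    rw [h2] at h1
    exact h1.symm
  have hdj : w.drop j = u ++ (w.drop j).drop m := by
    rw [hwin]; exact (List.take_append_drop m (w.drop j)).symm
  have hdi' : w.drop i = u ++ (w.drop i).drop m := (List.take_append_drop m (w.drop i)).symm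
  -- v ++ u is a factor of w
  have hvu_infix : (v ++ u) <:+: w := by
    refine ⟨w.take i, (w.drop j).drop m, ?_⟩
    rw [List.append_assoc, List.append_assoc, ← hdj, ← hdi, List.take_append_drop]
  have hvu_avoid : ∀ l ∈ T, ¬ l <:+: v ++ u := fun l hl h => hw l hl (h.trans hvu_infix)
  have hu_pre : u <+: v ++ u := by
    have h1 : u <+: w.drop i := ⟨_, hdi'.symm⟩
    have h2 : (v ++ u) <+: w.drop i :=
      ⟨(w.drop j).drop m, by rw [List.append_assoc, ← hdj, ← hdi]⟩
    exact List.prefix_of_prefix_length_le h1 h2 (by simp)
  have key : ∀ k : ℕ, (u <+: (List.replicate k v).flatten ++ u) ∧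
      ∀ l ∈ T, ¬ l <:+: (List.replicate k v).flatten ++ u := by
    intro k
    induction k with
    | zero =>
      refine ⟨by simp, fun l hl h => hvu_avoid l hl ?_⟩
      simp only [List.replicate_zero, List.flatten_nil, List.nil_append] at h
      exact h.trans (List.infix_append' v u [] |>.trans (by simp)) 
    | succ k ih =>
      obtain ⟨⟨s, hs⟩, hav⟩ := ih
      have hz : (List.replicate (k + 1) v).flatten ++ u = v ++ (u ++ s) := by
        rw [List.replicate_succ, List.flatten_cons, List.append_assoc, hs]
      refine ⟨?_, ?_⟩
      · rw [hz, ← List.append_assoc]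
        exact hu_pre.trans (List.prefix_append _ _)
      · intro l hl h
        rw [hz] at h
        rcases infix_split h (by rw [hulen]; exact hm l hl) with h1 | h1
        · rw [hs] at h1
          exact hav l hl h1
        · exact hvu_avoid l hl h1
  refine ⟨v, hvne, fun k l hl h => (key k).2 l hl ?_⟩
  exact h.trans (List.prefix_append _ _).isInfix

/-- Let `G` be a periodic group generated as a monoid by the image of a finite alphabet `S`.
Suppose a finite string-rewriting system `R` over `S` is sound for `G` (both sides of each rule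
have the same value in `G`), terminating, and detects the identity: every nonempty word
representing `1` is reducible. Then `G` is finite. -/
theorem result {G : Type*} [Group G] (hG : IsMulTorsion G) {S : Type*} [Finite S] (f : S → G)
    (hgen : ∀ g : G, ∃ w : List S, (w.map f).prod = g)
    (R : Set (List S × List S)) (hR : R.Finite)
    (hsound : ∀ p ∈ R, (p.1.map f).prod = (p.2.map f).prod)
    (hterm : WellFounded (fun v u => Step R u v))
    (hone : ∀ w : List S, w ≠ [] → (w.map f).prod = 1 → ∃ v, Step R w v) :
    Finite G := by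
  classical
  set T : Set (List S) := Prod.fst '' R with hT
  have hTfin : T.Finite := hR.image _
  -- reducibility in terms of factors
  have hred : ∀ w : List S, (∀ l ∈ T, ¬ l <:+: w) → ∀ v, ¬ Step R w v := by
    rintro w hw v ⟨x, y, l, r, hlr, rfl, -⟩
    exact hw l ⟨(l, r), hlr, rfl⟩ ⟨x, y, rfl⟩
  have hred' : ∀ w : List S, (∀ v, ¬ Step R w v) → ∀ l ∈ T, ¬ l <:+: w := by
    rintro w hw l ⟨⟨l', r⟩, hlr, rfl⟩ ⟨x, y, rfl⟩
    exact hw _ ⟨x, y, l', r, hlr, rfl, rfl⟩
  -- steps preserve the value
  have hstep : ∀ u v : List S, Step R u v → (u.map f).prod = (v.map f).prod := by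
    rintro u v ⟨x, y, l, r, hlr, rfl, rfl⟩
    have := hsound (l, r) hlr
    simp only [List.map_append, List.prod_append] at this ⊢
    rw [this]
  -- every element has an irreducible representative
  have hirr : ∀ g : G, ∃ w : List S, (w.map f).prod = g ∧ ∀ l ∈ T, ¬ l <:+: w := by
    intro g
    obtain ⟨w, hw, hmin⟩ := hterm.has_min {w : List S | (w.map f).prod = g} (hgen g)
    refine ⟨w, hw, hred' w fun v hv => hmin v ?_ hv⟩
    change (v.map f).prod = g
    rw [← hstep w v hv]
    exact hw
  obtain ⟨m, hm⟩ : ∃ m : ℕ, ∀ l ∈ T, l.length ≤ m := by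
    obtain ⟨m, hm⟩ := (hTfin.image List.length).bddAbove
    exact ⟨m, fun l hl => hm ⟨l, hl, rfl⟩⟩
  by_contra hinf
  rw [not_finite_iff_infinite] at hinf
  have hlong : ∀ N : ℕ, ∃ w : List S, N ≤ w.length ∧ ∀ l ∈ T, ¬ l <:+: w := by
    intro N
    by_contra hcon
    push Not at hcon
    have : Set.Finite (Set.univ : Set G) := by
      refine ((List.finite_length_lt S N).image (fun w => (w.map f).prod)).subset ?_
      intro g _
      obtain ⟨w, hw, hav⟩ := hirr g
      refine ⟨w, ?_, hw⟩
      by_contra hlen
      obtain ⟨l, hl, hlw⟩ := hcon w (not_lt.mp hlen)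
      exact hav l hl hlw
    exact (Set.infinite_univ_iff.mpr hinf) this
  obtain ⟨v, hvne, hv⟩ := exists_periodic T m hm hlong
  obtain ⟨k, hkpos, hk⟩ := isOfFinOrder_iff_pow_eq_one.mp (hG ((v.map f).prod))
  have hne : (List.replicate k v).flatten ≠ [] := by
    intro h
    have hlen := congrArg List.length h
    have hvl : 0 < v.length := List.length_pos_iff.mpr hvne
    simp only [List.length_flatten, List.map_replicate, List.sum_replicate, smul_eq_mul,
      List.length_nil] at hlen
    rcases Nat.mul_eq_zero.mp hlen with h0 | h0 <;> omega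
  obtain ⟨v', hv'⟩ := hone _ hne (by rw [prod_flatten_replicate, hk])
  exact hred _ (hv k) v' hv'

end Vale.Agent.Results.P192.RewritingSystem
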