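import Vale.Agent.P192.Wreath

namespace Vale.Agent.Results.P192.TwoGenerated

/-- The finitely presented Burnside problem reduces to two-generator groups: every finitely
presented periodic group is finite if and only if every finitely presented periodic group that can
be generated by two elements is finite. -/
theorem result :
    (∀ (G : Type) [Group G], Group.IsFinitelyPresented G → IsMulTorsion G → Finite G) ↔
    (∀ (G : Type) [Group G], Group.IsFinitelyPresented G → IsMulTorsion G →
      (∃ a b : G, Subgroup.closure {a, b} = ⊤) → Finite G) := by
  constructor
  · intro h G _ hfp htor _
    exact h G hfp htor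
  · intro h G _ hfp htor
    by_contra hinf
    rw [not_finite_iff_infinite] at hinf
    obtain ⟨H, _, hHfp, hHtor, hHinf, hgen⟩ := Vale.Agent.P192.exists_two_generated hfp htor hinf
    exact not_finite_iff_infinite.mpr hHinf (h H hHfp hHtor hgen)

end Vale.Agent.Results.P192.TwoGenerated
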