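import Vale.Agent.Results.P192.RegularNormalForms
import Vale.Agent.Results.P192.RewritingSystem
import Vale.Agent.Results.P192.TwoGenerated

namespace Vale.Agent.Results.P192.Combined

open Vale.Agent.Results.P192.RewritingSystem

universe u v

/-- Three facts on the finitely presented Burnside problem in one statement.
(1) A periodic group with a regular language of normal forms (every element has at least one and
only finitely many representatives in the language) over a finite alphabet is finite.
(2) A periodic group generated by a finite alphabet whose word problem is solved by a finite, sound,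
terminating rewriting system in which every nonempty word of value `1` is reducible is finite.
(3) The problem reduces to two-generator groups. -/
theorem result :
    (∀ (G : Type u) [Group G], IsMulTorsion G →
      ∀ (S : Type v) [Finite S] (f : S → G) (L : Language S), L.IsRegular →
        (∀ g : G, ∃ w ∈ L, (w.map f).prod = g) →
        (∀ g : G, {w : List S | w ∈ L ∧ (w.map f).prod = g}.Finite) → Finite G) ∧
    (∀ (G : Type u) [Group G], IsMulTorsion G →
      ∀ (S : Type v) [Finite S] (f : S → G), (∀ g : G, ∃ w : List S, (w.map f).prod = g) →
        ∀ R : Set (List S × List S), R.Finite →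
          (∀ p ∈ R, (p.1.map f).prod = (p.2.map f).prod) →
          WellFounded (fun v u => Step R u v) →
          (∀ w : List S, w ≠ [] → (w.map f).prod = 1 → ∃ v, Step R w v) → Finite G) ∧
    ((∀ (G : Type) [Group G], Group.IsFinitelyPresented G → IsMulTorsion G → Finite G) ↔
      (∀ (G : Type) [Group G], Group.IsFinitelyPresented G → IsMulTorsion G →
        (∃ a b : G, Subgroup.closure {a, b} = ⊤) → Finite G)) :=
  ⟨fun _ _ hG _ _ f L hL h1 h2 => RegularNormalForms.result hG f L hL h1 h2,
   fun _ _ hG _ _ f hgen R hR h1 h2 h3 => RewritingSystem.result hG f hgen R hR h1 h2 h3,
   TwoGenerated.result⟩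

end Vale.Agent.Results.P192.Combined
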