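import Mathlib

namespace Vale.Agent.Results.P192.RegularNormalForms

open Language

/-- Pumping a block whose value has finite order does not change the value. -/
private lemma prod_pump {G : Type*} [Group G] {S : Type*} (f : S → G) (a b c : List S) (k : ℕ)
    (hk : ((b.map f).prod) ^ k = 1) (n : ℕ) :
    (((a ++ (List.replicate (k * n) b).flatten ++ c).map f).prod) = ((a ++ c).map f).prod := by
  have h1 : ∀ m : ℕ, (((List.replicate m b).flatten).map f).prod = ((b.map f).prod) ^ m := by
    intro m
    induction m with
    | zero => simp
    | succ m ih =>
      rw [List.replicate_succ, List.flatten_cons, List.map_append, List.prod_append, ih, pow_succ']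
  simp only [List.map_append, List.prod_append, h1, pow_mul, hk, one_pow, mul_one]

/-- A periodic group generated (as a monoid) by the image of a finite alphabet `S`, in which a
regular language `L` over `S` contains at least one and at most finitely many representatives of
every group element, is finite. -/
theorem result {G : Type*} [Group G] (hG : IsMulTorsion G)
    {S : Type*} [Finite S] (f : S → G) (L : Language S) (hL : L.IsRegular)
    (hsurj : ∀ g : G, ∃ w ∈ L, (w.map f).prod = g)
    (hfin : ∀ g : G, {w : List S | w ∈ L ∧ (w.map f).prod = g}.Finite) : Finite G := by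
  classical
  obtain ⟨σ, _, M, hM⟩ := hL
  by_contra hinf
  rw [not_finite_iff_infinite] at hinf
  -- the language is infinite
  have hLinf : (L : Set (List S)).Infinite := by
    intro hLfin
    have : Set.Finite (Set.univ : Set G) := by
      refine (hLfin.image (fun w => (w.map f).prod)).subset ?_
      intro g _
      obtain ⟨w, hw, rfl⟩ := hsurj g
      exact ⟨w, hw, rfl⟩
    exact (Set.infinite_univ_iff.mpr hinf) this
  -- hence it contains a long word
  have hlong : ∃ w ∈ L, Fintype.card σ ≤ w.length := by
    by_contra hcon
    push Not at hcon
    apply hLinf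
    refine (List.finite_length_lt S (Fintype.card σ)).subset ?_
    intro w hw
    exact hcon w hw
  obtain ⟨w, hwL, hwlen⟩ := hlong
  rw [← hM] at hwL
  obtain ⟨a, b, c, -, -, hb, hpump⟩ := M.pumping_lemma hwL hwlen
  obtain ⟨k, hkpos, hk⟩ := (isOfFinOrder_iff_pow_eq_one.mp (hG ((b.map f).prod)))
  -- all the words a b^(k n) c lie in L and have the same value
  have hmem : ∀ n : ℕ, a ++ (List.replicate (k * n) b).flatten ++ c ∈ L := by
    intro n
    rw [← hM]
    apply hpump
    refine Language.mem_mul.mpr ⟨a ++ (List.replicate (k * n) b).flatten, ?_, c, rfl, rfl⟩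
    refine Language.mem_mul.mpr ⟨a, rfl, (List.replicate (k * n) b).flatten, ?_, rfl⟩
    rw [Language.mem_kstar]
    exact ⟨List.replicate (k * n) b, rfl, fun y hy => List.eq_of_mem_replicate hy⟩
  have hinj : Function.Injective
      (fun n : ℕ => a ++ (List.replicate (k * n) b).flatten ++ c) := by
    intro n m hnm
    have hlen := congrArg List.length hnm
    have hbl : 0 < b.length := List.length_pos_iff.mpr hb
    simp only [List.length_append, List.length_flatten, List.map_replicate, List.sum_replicate,
      smul_eq_mul] at hlen
    have h2 : k * n * b.length = k * m * b.length := by omega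
    have h3 : k * n = k * m := Nat.eq_of_mul_eq_mul_right hbl h2
    exact Nat.eq_of_mul_eq_mul_left hkpos h3
  have hrange : Set.range (fun n : ℕ => a ++ (List.replicate (k * n) b).flatten ++ c) ⊆
      {w : List S | w ∈ L ∧ (w.map f).prod = ((a ++ c).map f).prod} := by
    rintro _ ⟨n, rfl⟩
    exact ⟨hmem n, prod_pump f a b c k hk n⟩
  exact (Set.infinite_range_of_injective hinj) ((hfin _).subset hrange)

end Vale.Agent.Results.P192.RegularNormalForms
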